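import Vale.Agent.Lib.P340.Basic

/-!
# Reduction of the Barendregt-Geuvers-Klop conjecture to finitely many sorts

If every pure type system with a finite type of sorts satisfies
`weakly normalizing → strongly normalizing`, then so does every pure type system,
whatever its set of sorts, axioms and rules.
-/

namespace Vale.Agent.Results.P340.FiniteSorts

open Vale.Agent.Lib.P340

universe u

theorem result
    (hfin : ∀ (S : Type u) [Finite S] (Ax : S → S → Prop) (Ru : S → S → S → Prop),
      WeaklyNormalizing Ax Ru → StronglyNormalizing Ax Ru)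
    (S : Type u) (Ax : S → S → Prop) (Ru : S → S → S → Prop) :
    WeaklyNormalizing Ax Ru → StronglyNormalizing Ax Ru := by
  classical
  intro hWN M hM hinf
  by_cases hS : Nonempty S
  swap
  · have : IsEmpty S := not_nonempty_iff.1 hS
    exact hfin S Ax Ru hWN M hM hinf
  obtain ⟨star⟩ := hS
  -- a finite sub-specification in which `M` is already legal
  have key : ∃ (a : Finset (S × S)) (r : Finset (S × S × S)),
      (∀ p ∈ a, Ax p.1 p.2) ∧ (∀ p ∈ r, Ru p.1 p.2.1 p.2.2) ∧
      Legal (fun x y => (x, y) ∈ a) (fun x y z => (x, y, z) ∈ r) M := by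
    obtain ⟨Γ, N, h | h⟩ := hM
    · obtain ⟨a, r, ha, hr, ht⟩ := Typing.finite_support h
      exact ⟨a, r, ha, hr, Γ, N, Or.inl ht⟩
    · obtain ⟨a, r, ha, hr, ht⟩ := Typing.finite_support h
      exact ⟨a, r, ha, hr, Γ, N, Or.inr ht⟩
  obtain ⟨a, r, ha, hr, hleg⟩ := key
  -- the finitely many sorts involved
  let S₀ : Finset S := insert star
    (a.image Prod.fst ∪ a.image Prod.snd ∪ r.image (fun p => p.1) ∪
      r.image (fun p => p.2.1) ∪ r.image (fun p => p.2.2))
  have hstar : star ∈ S₀ := Finset.mem_insert_self _ _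
  have ha1 : ∀ x y, (x, y) ∈ a → x ∈ S₀ ∧ y ∈ S₀ := by
    intro x y h
    constructor
    · refine Finset.mem_insert_of_mem ?_
      simp only [Finset.mem_union, Finset.mem_image]
      exact Or.inl (Or.inl (Or.inl (Or.inl ⟨(x, y), h, rfl⟩)))
    · refine Finset.mem_insert_of_mem ?_
      simp only [Finset.mem_union, Finset.mem_image]
      exact Or.inl (Or.inl (Or.inl (Or.inr ⟨(x, y), h, rfl⟩)))
  have hr1 : ∀ x y z, (x, y, z) ∈ r → x ∈ S₀ ∧ y ∈ S₀ ∧ z ∈ S₀ := by
    intro x y z h
    refine ⟨?_, ?_, ?_⟩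
    · refine Finset.mem_insert_of_mem ?_
      simp only [Finset.mem_union, Finset.mem_image]
      exact Or.inl (Or.inl (Or.inr ⟨(x, y, z), h, rfl⟩))
    · refine Finset.mem_insert_of_mem ?_
      simp only [Finset.mem_union, Finset.mem_image]
      exact Or.inl (Or.inr ⟨(x, y, z), h, rfl⟩)
    · refine Finset.mem_insert_of_mem ?_
      simp only [Finset.mem_union, Finset.mem_image]
      exact Or.inr ⟨(x, y, z), h, rfl⟩
  -- the restricted specification on the finite type of sorts `S₀`
  let Ax' : {s // s ∈ S₀} → {s // s ∈ S₀} → Prop := fun x y => (x.1, y.1) ∈ a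
  let Ru' : {s // s ∈ S₀} → {s // s ∈ S₀} → {s // s ∈ S₀} → Prop :=
    fun x y z => (x.1, y.1, z.1) ∈ r
  let θ : S → {s // s ∈ S₀} := fun s => if h : s ∈ S₀ then ⟨s, h⟩ else ⟨star, hstar⟩
  have hθ : ∀ s (h : s ∈ S₀), θ s = ⟨s, h⟩ := by
    intro s h
    simp only [θ, dif_pos h]
  have hθι : ∀ x : {s // s ∈ S₀}, (θ ∘ Subtype.val) x = x := by
    intro x
    simp only [Function.comp]
    rw [hθ x.1 x.2]
  -- the restricted system is weakly normalizing
  have hWN' : WeaklyNormalizing Ax' Ru' := by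
    intro M' hM'
    have h1 : Legal (fun x y => (x, y) ∈ a) (fun x y z => (x, y, z) ∈ r)
        (Tm.map Subtype.val M') :=
      Legal.map (Ax' := fun x y => (x, y) ∈ a) (Ru' := fun x y z => (x, y, z) ∈ r)
        Subtype.val (fun _ _ h => h) (fun _ _ _ h => h) hM'
    have h2 : Legal Ax Ru (Tm.map Subtype.val M') :=
      Legal.mono (fun x y h => ha (x, y) h) (fun x y z h => hr (x, y, z) h) h1
    have h3 := HasNormalForm.map θ (hWN _ h2)
    rw [map_map, map_id' _ hθι] at h3
    exact h3
  have hSN' : StronglyNormalizing Ax' Ru' := hfin _ Ax' Ru' hWN'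
  -- transport `M` to the restricted system
  have hM' : Legal Ax' Ru' (Tm.map θ M) := by
    refine Legal.map θ ?_ ?_ hleg
    · intro x y h
      obtain ⟨hx, hy⟩ := ha1 x y h
      show ((θ x).1, (θ y).1) ∈ a
      rw [hθ x hx, hθ y hy]
      exact h
    · intro x y z h
      obtain ⟨hx, hy, hz⟩ := hr1 x y z h
      show ((θ x).1, (θ y).1, (θ z).1) ∈ r
      rw [hθ x hx, hθ y hy, hθ z hz]
      exact h
  exact hSN' _ hM' (HasInfiniteReduction.map θ hinf)

end Vale.Agent.Results.P340.FiniteSorts
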