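import Vale.Agent.Results.P340.FiniteSorts

/-!
# Reduction of the Barendregt-Geuvers-Klop conjecture to specifications on `Fin n`

If `weakly normalizing → strongly normalizing` holds for every pure type system whose set of
sorts is `Fin n` for some natural number `n`, then it holds for every pure type system, with an
arbitrary type of sorts in an arbitrary universe.
-/

namespace Vale.Agent.Results.P340.FiniteSpecFin

open Vale.Agent.Lib.P340

universe u

theorem result
    (hfin : ∀ (n : ℕ) (Ax : Fin n → Fin n → Prop) (Ru : Fin n → Fin n → Fin n → Prop),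
      WeaklyNormalizing Ax Ru → StronglyNormalizing Ax Ru)
    (S : Type u) (Ax : S → S → Prop) (Ru : S → S → S → Prop) :
    WeaklyNormalizing Ax Ru → StronglyNormalizing Ax Ru := by
  refine Vale.Agent.Results.P340.FiniteSorts.result ?_ S Ax Ru
  intro S' _ Ax' Ru' hWN M hM hinf
  obtain ⟨n, ⟨e⟩⟩ := Finite.exists_equiv_fin S'
  -- transport the specification to `Fin n`
  let AxF : Fin n → Fin n → Prop := fun a b => Ax' (e.symm a) (e.symm b)
  let RuF : Fin n → Fin n → Fin n → Prop := fun a b c => Ru' (e.symm a) (e.symm b) (e.symm c)
  have hWNF : WeaklyNormalizing AxF RuF := by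
    intro N hN
    have h1 : Legal Ax' Ru' (Tm.map e.symm N) :=
      Legal.map e.symm (fun _ _ h => h) (fun _ _ _ h => h) hN
    have h2 := HasNormalForm.map e (hWN _ h1)
    rw [map_map, map_id' _ (fun s => by simp)] at h2
    exact h2
  have hSNF : StronglyNormalizing AxF RuF := hfin n AxF RuF hWNF
  have hMF : Legal AxF RuF (Tm.map e M) := by
    refine Legal.map e ?_ ?_ hM
    · intro a b h
      show Ax' (e.symm (e a)) (e.symm (e b))
      simpa using h
    · intro a b c h
      show Ru' (e.symm (e a)) (e.symm (e b)) (e.symm (e c))
      simpa using h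
  exact hSNF _ hMF (HasInfiniteReduction.map e hinf)

end Vale.Agent.Results.P340.FiniteSpecFin
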