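import Vale.Agent.Lib.P340.FirstOrder

/-!
# P340: first-order pure type systems are strongly normalizing

An unconditional special case of the Barendregt-Geuvers-Klop conjecture.  Call a pure type
system *first-order* if there is a set `B` of base sorts such that (1) the first sort of every
rule is a base sort, so that every product quantifies over a type living in a base sort, (2) a
product living in a base sort has its codomain in a base sort, and (3) no sort is typed by a base
sort.  Every such system is strongly normalizing.  The simply typed lambda calculus and the
system `λP` of the cube are of this form (with `B = {*}`), and so is the system `λPRED` of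
first-order predicate logic; the sorts outside `B`, the axioms among them and the rules with
base domain are arbitrary.
-/

namespace Vale.Agent.Results.P340.FirstOrderSN

open Vale.Agent.Lib.P340

universe u

/-- Every first-order pure type system is strongly normalizing. -/
theorem result {S : Type u} (Ax : S → S → Prop) (Ru : S → S → S → Prop) (B : S → Prop)
    (h1 : ∀ s₁ s₂ s₃ : S, Ru s₁ s₂ s₃ → B s₁)
    (h2 : ∀ s₁ s₂ s₃ : S, Ru s₁ s₂ s₃ → B s₃ → B s₂)
    (h3 : ∀ s s' : S, Ax s s' → ¬ B s') :
    StronglyNormalizing Ax Ru :=
  first_order_sn h1 h2 h3

end Vale.Agent.Results.P340.FirstOrderSN
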