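import Vale.Agent.Lib.P340.Strat

/-!
# P340: rank-stratified pure type systems are strongly normalizing

An unconditional special case of the Barendregt-Geuvers-Klop conjecture.  If the sorts of a pure
type system carry a rank `ρ` (with values in a preorder whose strict order is well founded, for
instance the natural numbers) such that every rule `(s₁, s₂, s₃)` has `ρ s₁ < ρ s₃` and
`ρ s₂ ≤ ρ s₃`, then the system is strongly normalizing, whatever its axioms are.  The proof is a
hereditary-substitution argument on top of confluence, the generation lemmas and subject
reduction for arbitrary pure type systems.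
-/

namespace Vale.Agent.Results.P340.StratifiedSN

open Vale.Agent.Lib.P340

universe u v

/-- Every rank-stratified pure type system is strongly normalizing. -/
theorem result {S : Type u} {α : Type v} [Preorder α] [WellFoundedLT α]
    (Ax : S → S → Prop) (Ru : S → S → S → Prop) (ρ : S → α)
    (hρ : ∀ s₁ s₂ s₃ : S, Ru s₁ s₂ s₃ → ρ s₁ < ρ s₃ ∧ ρ s₂ ≤ ρ s₃) :
    StronglyNormalizing Ax Ru :=
  stratified_sn ρ hρ

end Vale.Agent.Results.P340.StratifiedSN
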